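import Vale.Agent.P093.All

namespace Vale.Agent.Results.P093.BlockShift

open Vale.Agent.P093

theorem result (X : Type) [TopologicalSpace X] [CompactSpace X]
    [TopologicalSpace.MetrizableSpace X] [Infinite X] (h : X ≃ₜ X) (hmin : IsMinimal h)
    (M d : ℕ) (K : Geometry.SimplicialComplex ℝ (Fin M → ℝ)) (hfin : K.faces.Finite)
    (hd : ∀ s ∈ K.faces, s.card ≤ d + 1) (hd' : ∃ s ∈ K.faces, s.card = d + 1)
    (e : C(X, Fin M → ℝ)) (ρ : ℝ) (hb : Block h K.space e ρ)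
    (A : Type) [CStarAlgebra A] [PartialOrder A] [StarOrderedRing A]
    (H : Type) [NormedAddCommGroup H] [InnerProductSpace ℂ H] [CompleteSpace H]
    (b : HilbertBasis (X × ℤ) ℂ H) (j : A →⋆ₐ[ℂ] (H →L[ℂ] H)) (hj : IsGen j (regGens h b)) :
    mdim h / 2 ≤ rc A ∧ mdim h ≤ ENNReal.ofReal (ρ * d) ∧ ENNReal.ofReal (ρ * d) / 2 ≤ rc A := by
  obtain ⟨j', hj'⟩ := brg b hj
  have k := block_main hmin K hfin hd hd' hb hj'
  exact ⟨(ENNReal.div_le_div_right k.1 2).trans k.2, k⟩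

end Vale.Agent.Results.P093.BlockShift
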